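import Mathlib

/-!
# Area toolkit for the tetrahedron / cylinder row (S0324 – S0329)

Areas are `μHE[2]` (Lebesgue-normalised 2-dimensional Hausdorff measure) in
`EuclideanSpace ℝ (Fin 3)`.
-/

set_option autoImplicit false
open MeasureTheory Module
open scoped ENNReal Pointwise

namespace Crest.Agent.S0324Lib

/-- The standard triangle in the Euclidean plane. -/
def areaStdTri : Set (EuclideanSpace ℝ (Fin 2)) :=
  {x | 0 ≤ x 0 ∧ 0 ≤ x 1 ∧ x 0 + x 1 ≤ 1}

/-- The standard triangle in `ℝ × ℝ`. -/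
def areaProdTri : Set (ℝ × ℝ) := {p | 0 ≤ p.1 ∧ 0 ≤ p.2 ∧ p.1 + p.2 ≤ 1}

theorem area_measurableSet_prodTri : MeasurableSet areaProdTri := by
  apply IsClosed.measurableSet
  have : areaProdTri = {p : ℝ × ℝ | 0 ≤ p.1} ∩ {p | 0 ≤ p.2} ∩ {p | p.1 + p.2 ≤ 1} := by
    ext p; simp [areaProdTri, and_assoc]
  rw [this]
  exact ((isClosed_le continuous_const continuous_fst).inter
    (isClosed_le continuous_const continuous_snd)).inter
    (isClosed_le (continuous_fst.add continuous_snd) continuous_const)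

theorem area_volume_prodTri : volume areaProdTri = ENNReal.ofReal (1 / 2) := by
  rw [Measure.volume_eq_prod, Measure.prod_apply area_measurableSet_prodTri]
  have hsec : ∀ x : ℝ, volume (Prod.mk x ⁻¹' areaProdTri) =
      Set.indicator (Set.Icc (0 : ℝ) 1) (fun x => ENNReal.ofReal (1 - x)) x := by
    intro x
    by_cases hx : x ∈ Set.Icc (0 : ℝ) 1
    · have : Prod.mk x ⁻¹' areaProdTri = Set.Icc 0 (1 - x) := by
        ext y
        simp only [areaProdTri, Set.mem_preimage, Set.mem_ofPred_eq, Set.mem_Icc]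
        constructor
        · rintro ⟨_, h1, h2⟩; exact ⟨h1, by linarith⟩
        · rintro ⟨h1, h2⟩; exact ⟨hx.1, h1, by linarith⟩
      rw [this, Real.volume_Icc, Set.indicator_of_mem hx]; simp
    · have : Prod.mk x ⁻¹' areaProdTri = ∅ := by
        ext y
        simp only [areaProdTri, Set.mem_preimage, Set.mem_ofPred_eq, Set.mem_empty_iff_false,
          iff_false, not_and, not_le]
        intro h0 h1
        by_contra h2
        exact hx ⟨h0, by linarith⟩
      rw [this, Set.indicator_of_notMem hx]; simp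
  simp_rw [hsec]
  rw [lintegral_indicator measurableSet_Icc]
  rw [← ofReal_integral_eq_lintegral_ofReal]
  · congr 1
    rw [integral_Icc_eq_integral_Ioc, ← intervalIntegral.integral_of_le zero_le_one]
    have : ∫ x in (0:ℝ)..1, (1 - x) = 1 / 2 := by
      rw [intervalIntegral.integral_sub (by simp) (by simp)]
      simp
      norm_num
    exact this
  · exact (continuous_const.sub continuous_id).integrableOn_Icc
  · exact (ae_restrict_iff' measurableSet_Icc).2 (Filter.Eventually.of_forall fun x hx => by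
      simp only [Pi.zero_apply]; linarith [hx.2])

theorem area_volume_stdTri : volume areaStdTri = ENNReal.ofReal (1 / 2) := by
  have h1 : areaStdTri = (WithLp.ofLp : EuclideanSpace ℝ (Fin 2) → (Fin 2 → ℝ)) ⁻¹'
      ((MeasurableEquiv.finTwoArrow : (Fin 2 → ℝ) ≃ᵐ ℝ × ℝ) ⁻¹' areaProdTri) := by
    ext x
    simp [areaStdTri, areaProdTri, MeasurableEquiv.finTwoArrow]
  rw [h1, (PiLp.volume_preserving_ofLp (Fin 2)).measure_preimage
      ((MeasurableEquiv.finTwoArrow.measurable area_measurableSet_prodTri).nullMeasurableSet),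
    (volume_preserving_finTwoArrow ℝ).measure_preimage
      area_measurableSet_prodTri.nullMeasurableSet, area_volume_prodTri]

theorem area_convex_stdTri : Convex ℝ areaStdTri := by
  rintro x ⟨hx0, hx1, hx2⟩ y ⟨hy0, hy1, hy2⟩ a b ha hb hab
  refine ⟨?_, ?_, ?_⟩
  · simp only [PiLp.add_apply, PiLp.smul_apply, smul_eq_mul]; positivity
  · simp only [PiLp.add_apply, PiLp.smul_apply, smul_eq_mul]; positivity
  · simp only [PiLp.add_apply, PiLp.smul_apply, smul_eq_mul]
    nlinarith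

/-- The linear map `x ↦ x 0 • a + x 1 • b` from the Euclidean plane. -/
noncomputable def areaLin (a b : EuclideanSpace ℝ (Fin 3)) :
    EuclideanSpace ℝ (Fin 2) →ₗ[ℝ] EuclideanSpace ℝ (Fin 3) :=
  (EuclideanSpace.basisFun (Fin 2) ℝ).toBasis.constr ℝ ![a, b]

theorem areaLin_apply (a b : EuclideanSpace ℝ (Fin 3)) (x : EuclideanSpace ℝ (Fin 2)) :
    areaLin a b x = x 0 • a + x 1 • b := by
  simp [areaLin, Basis.constr_apply_fintype, Fin.sum_univ_two]

theorem areaLin_normDet (a b : EuclideanSpace ℝ (Fin 3)) :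
    (areaLin a b).normDet = Real.sqrt (‖a‖ ^ 2 * ‖b‖ ^ 2 - inner ℝ a b ^ 2) := by
  have hsq := (areaLin a b).normDet_sq_eq_det_gram (EuclideanSpace.basisFun (Fin 2) ℝ)
  have h0 : areaLin a b (EuclideanSpace.basisFun (Fin 2) ℝ 0) = a := by
    simp [areaLin_apply]
  have h1 : areaLin a b (EuclideanSpace.basisFun (Fin 2) ℝ 1) = b := by
    simp [areaLin_apply]
  rw [Matrix.det_fin_two] at hsq
  simp only [Matrix.gram_apply, h0, h1, real_inner_self_eq_norm_sq] at hsq
  have hsq' : (areaLin a b).normDet ^ 2 = ‖a‖ ^ 2 * ‖b‖ ^ 2 - inner ℝ a b ^ 2 := by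
    rw [real_inner_comm a b] at hsq
    simpa [sq] using hsq
  rw [← hsq', Real.sqrt_sq (LinearMap.normDet_nonneg _)]

theorem area_image_stdTri (a b : EuclideanSpace ℝ (Fin 3)) :
    μHE[2] (areaLin a b '' areaStdTri) =
      ENNReal.ofReal (Real.sqrt (‖a‖ ^ 2 * ‖b‖ ^ 2 - inner ℝ a b ^ 2) / 2) := by
  have h := (areaLin a b).euclideanHausdorffMeasure_image_eq_normDet_mul_volume areaStdTri
  rw [finrank_euclideanSpace_fin] at h
  rw [h, area_volume_stdTri, ← ENNReal.ofReal_mul (LinearMap.normDet_nonneg _), areaLin_normDet]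
  congr 1
  ring

theorem area_convexHull_triple (p q r : EuclideanSpace ℝ (Fin 3)) :
    convexHull ℝ {p, q, r} = p +ᵥ (areaLin (q - p) (r - p) '' areaStdTri) := by
  apply Set.Subset.antisymm
  · apply convexHull_min
    · intro z hz
      rcases hz with rfl | rfl | rfl
      · refine ⟨_, ⟨0, ?_, rfl⟩, by simp⟩
        simp [areaStdTri]
      · refine ⟨_, ⟨EuclideanSpace.single 0 1, ?_, rfl⟩, ?_⟩
        · simp [areaStdTri]
        · simp [areaLin_apply]
      · refine ⟨_, ⟨EuclideanSpace.single 1 1, ?_, rfl⟩, ?_⟩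
        · simp [areaStdTri]
        · simp [areaLin_apply]
    · exact (area_convex_stdTri.linear_image _).vadd p
  · rintro _ ⟨_, ⟨x, ⟨hx0, hx1, hx2⟩, rfl⟩, rfl⟩
    refine mem_convexHull_of_exists_fintype (ι := Fin 3) ![1 - x 0 - x 1, x 0, x 1] ![p, q, r]
      ?_ ?_ ?_ ?_
    · intro i; fin_cases i <;> simp <;> linarith
    · simp [Fin.sum_univ_three]; ring
    · intro i; fin_cases i <;> simp
    · simp only [Fin.sum_univ_three, areaLin_apply]
      simp
      module

/-- **Area of a triangle** in Euclidean 3-space (Gram determinant formula). -/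
theorem area_triangle (p q r : EuclideanSpace ℝ (Fin 3)) :
    μHE[2] (convexHull ℝ {p, q, r}) =
      ENNReal.ofReal (Real.sqrt (‖q - p‖ ^ 2 * ‖r - p‖ ^ 2 - inner ℝ (q - p) (r - p) ^ 2) / 2) := by
  rw [area_convexHull_triple, measure_vadd, area_image_stdTri]

theorem area_mem_convexHull_triple {p q r x : EuclideanSpace ℝ (Fin 3)} :
    x ∈ convexHull ℝ {p, q, r} ↔
      ∃ s t : ℝ, 0 ≤ s ∧ 0 ≤ t ∧ s + t ≤ 1 ∧ x = p + s • (q - p) + t • (r - p) := by
  rw [area_convexHull_triple]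
  constructor
  · rintro ⟨_, ⟨y, ⟨h0, h1, h2⟩, rfl⟩, rfl⟩
    exact ⟨y 0, y 1, h0, h1, h2, by simp [areaLin_apply, add_assoc]⟩
  · rintro ⟨s, t, h0, h1, h2, rfl⟩
    refine ⟨_, ⟨!₂[s, t], ⟨by simpa using h0, by simpa using h1, by simpa using h2⟩, rfl⟩, ?_⟩
    simp [areaLin_apply, add_assoc]

theorem area_triangle_ne_top (p q r : EuclideanSpace ℝ (Fin 3)) :
    μHE[2] (convexHull ℝ {p, q, r}) ≠ ⊤ := by
  rw [area_triangle]; exact ENNReal.ofReal_ne_top

theorem area_triangle_toReal (p q r : EuclideanSpace ℝ (Fin 3)) :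
    (μHE[2] (convexHull ℝ {p, q, r})).toReal =
      Real.sqrt (‖q - p‖ ^ 2 * ‖r - p‖ ^ 2 - inner ℝ (q - p) (r - p) ^ 2) / 2 := by
  rw [area_triangle, ENNReal.toReal_ofReal (by positivity)]

/-! ### Parallelograms -/

/-- The unit square in the Euclidean plane. -/
def areaStdSq : Set (EuclideanSpace ℝ (Fin 2)) :=
  {x | (0 ≤ x 0 ∧ x 0 ≤ 1) ∧ (0 ≤ x 1 ∧ x 1 ≤ 1)}

theorem area_volume_stdSq : volume areaStdSq = 1 := by
  have h1 : areaStdSq = (WithLp.ofLp : EuclideanSpace ℝ (Fin 2) → (Fin 2 → ℝ)) ⁻¹'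
      (Set.Icc (0 : Fin 2 → ℝ) 1) := by
    ext x
    simp [areaStdSq, Pi.le_def, Fin.forall_fin_two]
    tauto
  rw [h1, (PiLp.volume_preserving_ofLp (Fin 2)).measure_preimage
      measurableSet_Icc.nullMeasurableSet, Real.volume_Icc_pi]
  simp

theorem area_image_stdSq (a b : EuclideanSpace ℝ (Fin 3)) :
    μHE[2] (areaLin a b '' areaStdSq) =
      ENNReal.ofReal (Real.sqrt (‖a‖ ^ 2 * ‖b‖ ^ 2 - inner ℝ a b ^ 2)) := by
  have h := (areaLin a b).euclideanHausdorffMeasure_image_eq_normDet_mul_volume areaStdSq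
  rw [finrank_euclideanSpace_fin] at h
  rw [h, area_volume_stdSq, mul_one, areaLin_normDet]

theorem area_parallelogram_eq_vadd (c a b : EuclideanSpace ℝ (Fin 3)) :
    {x : EuclideanSpace ℝ (Fin 3) | ∃ s ∈ Set.Icc (0 : ℝ) 1, ∃ t ∈ Set.Icc (0 : ℝ) 1,
        x = c + s • a + t • b} = c +ᵥ (areaLin a b '' areaStdSq) := by
  ext x
  constructor
  · rintro ⟨s, hs, t, ht, rfl⟩
    refine ⟨_, ⟨!₂[s, t], ⟨by simpa using hs, by simpa using ht⟩, rfl⟩, ?_⟩
    simp [areaLin_apply, add_assoc]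
  · rintro ⟨_, ⟨y, ⟨h0, h1⟩, rfl⟩, rfl⟩
    exact ⟨y 0, h0, y 1, h1, by simp [areaLin_apply, add_assoc]⟩

/-- **Area of a parallelogram** `c + [0,1] a + [0,1] b` in Euclidean 3-space. -/
theorem area_parallelogram (c a b : EuclideanSpace ℝ (Fin 3)) :
    μHE[2] {x : EuclideanSpace ℝ (Fin 3) | ∃ s ∈ Set.Icc (0 : ℝ) 1, ∃ t ∈ Set.Icc (0 : ℝ) 1,
        x = c + s • a + t • b} =
      ENNReal.ofReal (Real.sqrt (‖a‖ ^ 2 * ‖b‖ ^ 2 - inner ℝ a b ^ 2)) := by
  rw [area_parallelogram_eq_vadd, measure_vadd, area_image_stdSq]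

/-! ### Finiteness for bounded planar sets -/

/-- A bounded subset of the plane `u^⊥` (`u ≠ 0`) has finite area. -/
theorem area_lt_top_of_isBounded_of_inner_eq_zero {u : EuclideanSpace ℝ (Fin 3)} (hu : u ≠ 0)
    {S : Set (EuclideanSpace ℝ (Fin 3))} (hS : Bornology.IsBounded S)
    (hSu : ∀ x ∈ S, inner ℝ x u = 0) : μHE[2] S < ⊤ := by
  have : Fact (finrank ℝ (EuclideanSpace ℝ (Fin 3)) = 2 + 1) := ⟨by simp⟩
  set W : Submodule ℝ (EuclideanSpace ℝ (Fin 3)) := (ℝ ∙ u)ᗮ with hW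
  have hfin : finrank ℝ W = 2 := Submodule.finrank_orthogonal_span_singleton hu
  have hSW : S = Subtype.val '' ((Subtype.val : W → EuclideanSpace ℝ (Fin 3)) ⁻¹' S) := by
    ext x
    constructor
    · intro hx
      have hxW : x ∈ W := by
        rw [hW, Submodule.mem_orthogonal_singleton_iff_inner_right, real_inner_comm]
        exact hSu x hx
      exact ⟨⟨x, hxW⟩, hx, rfl⟩
    · rintro ⟨w, hw, rfl⟩
      exact hw
  rw [hSW, isometry_subtype_coe.euclideanHausdorffMeasure_image, ← hfin,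
    InnerProductSpace.euclideanHausdorffMeasure_eq_volume]
  apply Bornology.IsBounded.measure_lt_top
  obtain ⟨C, hC⟩ := hS.exists_norm_le
  refine (isBounded_iff_forall_norm_le).2 ⟨C, ?_⟩
  intro w hw
  simpa using hC _ hw

/-! ### Comparison of `μH[2]` and `μHE[2]` -/

/-- `μH[2]` is a positive constant multiple of `μHE[2]` (used for S0324, stated with `μH[2]`). -/
theorem area_muH_eq : ∃ κ : ℝ, 0 < κ ∧ ∀ s : Set (EuclideanSpace ℝ (Fin 3)),
    (μH[2] s).toReal = κ * (μHE[2] s).toReal := by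
  set c := Measure.addHaarScalarFactor (volume : Measure (EuclideanSpace ℝ (Fin 2))) μH[(2 : ℕ)]
    with hc
  have hc0 : c ≠ 0 := Measure.addHaarScalarFactor_volume_hausdorffMeasure_ne_zero 2
  have hcpos : (0 : ℝ) < c := by positivity
  refine ⟨(c : ℝ)⁻¹, inv_pos.2 hcpos, fun s => ?_⟩
  have h : μHE[2] s = (c : ℝ≥0∞) * μH[((2 : ℕ) : ℝ)] s := by
    rw [Measure.euclideanHausdorffMeasure_def, Measure.smul_apply]
    rfl
  have h2 : (μH[((2 : ℕ) : ℝ)] s) = μH[(2 : ℝ)] s := by norm_num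
  rw [h, h2, ENNReal.toReal_mul, ENNReal.coe_toReal]
  field_simp

/-- `μH[2]` is a positive constant multiple of `μHE[2]`, as an identity in `ℝ≥0∞`. -/
theorem area_muH_eq' : ∃ κ : ℝ, 0 < κ ∧ ∀ s : Set (EuclideanSpace ℝ (Fin 3)),
    μH[(2 : ℝ)] s = ENNReal.ofReal κ * μHE[2] s := by
  set c := Measure.addHaarScalarFactor (volume : Measure (EuclideanSpace ℝ (Fin 2))) μH[(2 : ℕ)]
    with hc
  have hc0 : c ≠ 0 := Measure.addHaarScalarFactor_volume_hausdorffMeasure_ne_zero 2
  have hcpos : (0 : ℝ) < c := by positivity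
  refine ⟨(c : ℝ)⁻¹, inv_pos.2 hcpos, fun s => ?_⟩
  have h : μHE[2] s = (c : ℝ≥0∞) * μH[((2 : ℕ) : ℝ)] s := by
    rw [Measure.euclideanHausdorffMeasure_def, Measure.smul_apply]
    rfl
  have h2 : (μH[((2 : ℕ) : ℝ)] s) = μH[(2 : ℝ)] s := by norm_num
  rw [h, h2, ← mul_assoc, ENNReal.ofReal_inv_of_pos hcpos, ENNReal.ofReal_coe_nnreal,
    ENNReal.inv_mul_cancel (by simpa using hc0) ENNReal.coe_ne_top, one_mul]

/-! ### The quadrilateral bound (two triangles sharing an edge) -/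

/-- The symmetric bilinear form `Q_d(x, y) = ‖d‖² ⟪x, y⟫ - ⟪d, x⟫ ⟪d, y⟫`; `Q_d(x, x)` is the Gram
determinant of `d, x`. -/
noncomputable def areaQ (d x y : EuclideanSpace ℝ (Fin 3)) : ℝ :=
  ‖d‖ ^ 2 * inner ℝ x y - inner ℝ d x * inner ℝ d y

theorem areaQ_self (d x : EuclideanSpace ℝ (Fin 3)) :
    areaQ d x x = ‖d‖ ^ 2 * ‖x‖ ^ 2 - inner ℝ d x ^ 2 := by
  unfold areaQ
  rw [real_inner_self_eq_norm_sq]
  ring

theorem areaQ_self_nonneg (d x : EuclideanSpace ℝ (Fin 3)) : 0 ≤ areaQ d x x := by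
  rw [areaQ_self]
  have h := abs_real_inner_le_norm d x
  have h2 : inner ℝ d x ^ 2 ≤ (‖d‖ * ‖x‖) ^ 2 := sq_le_sq' (by linarith [abs_le.1 h]) (abs_le.1 h).2
  nlinarith

theorem areaQ_comm (d x y : EuclideanSpace ℝ (Fin 3)) : areaQ d x y = areaQ d y x := by
  unfold areaQ
  rw [real_inner_comm x y]
  ring

theorem areaQ_left (d y : EuclideanSpace ℝ (Fin 3)) : areaQ d d y = 0 := by
  unfold areaQ
  rw [real_inner_self_eq_norm_sq]
  ring

theorem areaQ_lin (d x y z : EuclideanSpace ℝ (Fin 3)) (s t : ℝ) :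
    areaQ d (s • x + t • y) z = s * areaQ d x z + t * areaQ d y z := by
  unfold areaQ
  simp only [inner_add_left, inner_add_right, inner_smul_left, inner_smul_right,
    RCLike.conj_to_real]
  ring

theorem areaQ_sub_right (d x y z : EuclideanSpace ℝ (Fin 3)) :
    areaQ d x (y - z) = areaQ d x y - areaQ d x z := by
  unfold areaQ
  simp only [inner_sub_right]
  ring

theorem areaQ_sub_self (d x y : EuclideanSpace ℝ (Fin 3)) :
    areaQ d (x - y) (x - y) = areaQ d x x - 2 * areaQ d x y + areaQ d y y := by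
  unfold areaQ
  simp only [inner_sub_left, inner_sub_right]
  rw [real_inner_comm x y]
  ring

theorem areaQ_add_smul_self (d x y : EuclideanSpace ℝ (Fin 3)) (t : ℝ) :
    areaQ d (x + t • y) (x + t • y) =
      areaQ d y y * (t * t) + 2 * areaQ d x y * t + areaQ d x x := by
  unfold areaQ
  simp only [inner_add_left, inner_add_right, inner_smul_left, inner_smul_right,
    RCLike.conj_to_real]
  rw [real_inner_comm x y]
  ring

/-- Cauchy–Schwarz for `areaQ d`. -/
theorem areaQ_sq_le (d x y : EuclideanSpace ℝ (Fin 3)) :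
    areaQ d x y ^ 2 ≤ areaQ d x x * areaQ d y y := by
  have h := discrim_le_zero (a := areaQ d y y) (b := 2 * areaQ d x y) (c := areaQ d x x)
    (fun t => by
      have := areaQ_self_nonneg d (x + t • y)
      rw [areaQ_add_smul_self] at this
      linarith)
  unfold discrim at h
  nlinarith

/-- `√(Q_d(x,x))` is a seminorm: the triangle inequality. -/
theorem areaQ_sqrt_sub_le (d x y : EuclideanSpace ℝ (Fin 3)) :
    Real.sqrt (areaQ d (x - y) (x - y)) ≤ Real.sqrt (areaQ d x x) + Real.sqrt (areaQ d y y) := by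
  have hx := areaQ_self_nonneg d x
  have hy := areaQ_self_nonneg d y
  have hxy : |areaQ d x y| ≤ Real.sqrt (areaQ d x x) * Real.sqrt (areaQ d y y) := by
    rw [← Real.sqrt_mul hx]
    exact Real.abs_le_sqrt (areaQ_sq_le d x y)
  rw [Real.sqrt_le_left (by positivity)]
  rw [areaQ_sub_self, add_sq, Real.sq_sqrt hx, Real.sq_sqrt hy]
  have := (abs_le.1 hxy).1
  linarith

/-- **Quadrilateral bound.** The convex hull of four points `P₁, P₂, P₃, P₄` of Euclidean
3-space has area at least half the Gram root of the two "diagonals" `P₁ - P₂`, `P₃ - P₄`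
(the two triangles `P₂ P₁ P₃`, `P₂ P₁ P₄` either overlap only in the segment `P₂ P₁`, or one of
them alone is large enough). -/
theorem area_quadrilateral_ge (P₁ P₂ P₃ P₄ : EuclideanSpace ℝ (Fin 3)) :
    ENNReal.ofReal (Real.sqrt (‖P₁ - P₂‖ ^ 2 * ‖P₃ - P₄‖ ^ 2 -
        inner ℝ (P₁ - P₂) (P₃ - P₄) ^ 2) / 2) ≤
      μHE[2] (convexHull ℝ {P₁, P₂, P₃, P₄}) := by
  set d := P₁ - P₂ with hd
  set e3 := P₃ - P₂ with he3
  set e4 := P₄ - P₂ with he4
  have h34 : P₃ - P₄ = e3 - e4 := by simp [he3, he4]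
  have hT3 : convexHull ℝ {P₂, P₁, P₃} ⊆ convexHull ℝ {P₁, P₂, P₃, P₄} :=
    convexHull_mono (by
      intro x
      simp only [Set.mem_insert_iff, Set.mem_singleton_iff]
      tauto)
  have hT4 : convexHull ℝ {P₂, P₁, P₄} ⊆ convexHull ℝ {P₁, P₂, P₃, P₄} :=
    convexHull_mono (by
      intro x
      simp only [Set.mem_insert_iff, Set.mem_singleton_iff]
      tauto)
  have hA3 : μHE[2] (convexHull ℝ {P₂, P₁, P₃}) =
      ENNReal.ofReal (Real.sqrt (areaQ d e3 e3) / 2) := by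
    rw [area_triangle, areaQ_self]
  have hA4 : μHE[2] (convexHull ℝ {P₂, P₁, P₄}) =
      ENNReal.ofReal (Real.sqrt (areaQ d e4 e4) / 2) := by
    rw [area_triangle, areaQ_self]
  rw [h34, ← areaQ_self]
  have h3 := areaQ_self_nonneg d e3
  have h4 := areaQ_self_nonneg d e4
  by_cases h1 : areaQ d e3 e3 ≤ areaQ d e3 e4
  · calc ENNReal.ofReal (Real.sqrt (areaQ d (e3 - e4) (e3 - e4)) / 2)
        ≤ ENNReal.ofReal (Real.sqrt (areaQ d e4 e4) / 2) := by
          apply ENNReal.ofReal_le_ofReal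
          have : areaQ d (e3 - e4) (e3 - e4) ≤ areaQ d e4 e4 := by
            rw [areaQ_sub_self]; linarith
          linarith [Real.sqrt_le_sqrt this]
      _ = μHE[2] (convexHull ℝ {P₂, P₁, P₄}) := hA4.symm
      _ ≤ _ := measure_mono hT4
  by_cases h2 : areaQ d e4 e4 ≤ areaQ d e3 e4
  · calc ENNReal.ofReal (Real.sqrt (areaQ d (e3 - e4) (e3 - e4)) / 2)
        ≤ ENNReal.ofReal (Real.sqrt (areaQ d e3 e3) / 2) := by
          apply ENNReal.ofReal_le_ofReal
          have : areaQ d (e3 - e4) (e3 - e4) ≤ areaQ d e3 e3 := by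
            rw [areaQ_sub_self]; linarith
          linarith [Real.sqrt_le_sqrt this]
      _ = μHE[2] (convexHull ℝ {P₂, P₁, P₃}) := hA3.symm
      _ ≤ _ := measure_mono hT3
  push Not at h1 h2
  -- the two triangles meet only inside the segment `P₂ P₁`
  have hinter : convexHull ℝ {P₂, P₁, P₃} ∩ convexHull ℝ {P₂, P₁, P₄} ⊆
      convexHull ℝ {P₂, P₁, P₁} := by
    rintro x ⟨hx3, hx4⟩
    obtain ⟨s, t, hs, ht, hst, rfl⟩ := area_mem_convexHull_triple.1 hx3
    obtain ⟨s', t', hs', ht', hst', hx'⟩ := area_mem_convexHull_triple.1 hx4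
    have key : s • d + t • e3 = s' • d + t' • e4 := by
      have := hx'
      rw [add_assoc, add_assoc] at this
      exact add_left_cancel this
    have hφ := congrArg (fun w => areaQ d w (e3 - e4)) key
    simp only [areaQ_lin, areaQ_left, areaQ_sub_right] at hφ
    rw [areaQ_comm d e4 e3] at hφ
    have ht0 : t = 0 := by
      by_contra htne
      have htpos : 0 < t := lt_of_le_of_ne ht (Ne.symm htne)
      nlinarith [mul_pos htpos (sub_pos.2 h1), mul_nonneg ht' (sub_pos.2 h2).le]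
    subst ht0
    exact area_mem_convexHull_triple.2 ⟨s, 0, hs, le_rfl, by linarith, by simp⟩
  have hnull : μHE[2] (convexHull ℝ {P₂, P₁, P₃} ∩ convexHull ℝ {P₂, P₁, P₄}) = 0 := by
    apply measure_mono_null hinter
    rw [area_triangle, ← areaQ_self, areaQ_left]
    simp
  have hmeas : MeasurableSet (convexHull ℝ {P₂, P₁, P₄}) :=
    (Set.Finite.isCompact_convexHull ℝ (by simp)).isClosed.measurableSet
  have hunion := measure_union_add_inter (μ := μHE[2]) (convexHull ℝ {P₂, P₁, P₃}) hmeas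
  rw [hnull, add_zero, hA3, hA4] at hunion
  calc ENNReal.ofReal (Real.sqrt (areaQ d (e3 - e4) (e3 - e4)) / 2)
      ≤ ENNReal.ofReal (Real.sqrt (areaQ d e3 e3) / 2 + Real.sqrt (areaQ d e4 e4) / 2) := by
        apply ENNReal.ofReal_le_ofReal
        linarith [areaQ_sqrt_sub_le d e3 e4]
    _ = ENNReal.ofReal (Real.sqrt (areaQ d e3 e3) / 2) +
          ENNReal.ofReal (Real.sqrt (areaQ d e4 e4) / 2) :=
        ENNReal.ofReal_add (by positivity) (by positivity)
    _ = μHE[2] (convexHull ℝ {P₂, P₁, P₃} ∪ convexHull ℝ {P₂, P₁, P₄}) := hunion.symm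
    _ ≤ _ := measure_mono (Set.union_subset hT3 hT4)

end Crest.Agent.S0324Lib
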