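/-
S0324Lib/Proj.lean (helper5): orthogonal projections of triangles / quadruples in Euclidean 3-space
and of the standard regular tetrahedron `conv{(±1,0,0),(0,±1,√2)}`: every projection has area at
least `√2`, with equality along the edge direction `(1,0,0)`.  Imports only Mathlib and the area
toolkit `S0324Lib/Area.lean`.  No `sorry`.
-/
import Crest.Agent.S0324Lib.Area

set_option autoImplicit false

open MeasureTheory Module
open scoped ENNReal Pointwise

namespace Crest.Agent.S0324Lib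

/-- The 3×3 determinant with rows `a`, `b`, `u`. -/
def areaDet3 (a b u : EuclideanSpace ℝ (Fin 3)) : ℝ :=
  a 0 * (b 1 * u 2 - b 2 * u 1) - a 1 * (b 0 * u 2 - b 2 * u 0) + a 2 * (b 0 * u 1 - b 1 * u 0)

/-- Orthogonal projection onto `u^⊥` for a unit vector `u`. -/
noncomputable def areaProj (u y : EuclideanSpace ℝ (Fin 3)) : EuclideanSpace ℝ (Fin 3) :=
  y - inner ℝ y u • u

theorem areaProj_sub (u x y : EuclideanSpace ℝ (Fin 3)) :
    areaProj u x - areaProj u y = areaProj u (x - y) := by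
  unfold areaProj
  rw [inner_sub_left, sub_smul]
  abel

theorem areaProj_isLinearMap (u : EuclideanSpace ℝ (Fin 3)) : IsLinearMap ℝ (areaProj u) := by
  constructor
  · intro x y
    unfold areaProj
    rw [inner_add_left, add_smul]
    abel
  · intro c x
    unfold areaProj
    rw [inner_smul_left, smul_sub, smul_smul]
    simp

theorem areaProj_inner_self (u y : EuclideanSpace ℝ (Fin 3)) (hu : ‖u‖ = 1) :
    inner ℝ (areaProj u y) u = 0 := by
  unfold areaProj
  rw [inner_sub_left, inner_smul_left, real_inner_self_eq_norm_sq, hu]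
  simp

theorem areaProj_norm_sq (a u : EuclideanSpace ℝ (Fin 3)) (hu : ‖u‖ = 1) :
    ‖areaProj u a‖ ^ 2 = ‖a‖ ^ 2 - inner ℝ a u ^ 2 := by
  unfold areaProj
  rw [norm_sub_sq_real, inner_smul_right, norm_smul, hu, Real.norm_eq_abs, mul_one, sq_abs]
  ring

theorem areaProj_inner (a b u : EuclideanSpace ℝ (Fin 3)) (hu : ‖u‖ = 1) :
    inner ℝ (areaProj u a) (areaProj u b) = inner ℝ a b - inner ℝ a u * inner ℝ b u := by
  unfold areaProj
  simp only [inner_sub_left, inner_sub_right, inner_smul_left, inner_smul_right,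
    real_inner_self_eq_norm_sq, hu, RCLike.conj_to_real]
  rw [real_inner_comm b u]
  ring

/-- Lagrange/Gram identity: the Gram determinant of the projections onto `u^⊥` (unit `u`) is the
squared 3×3 determinant. -/
theorem areaProj_gram (a b u : EuclideanSpace ℝ (Fin 3)) (hu : ‖u‖ = 1) :
    ‖areaProj u a‖ ^ 2 * ‖areaProj u b‖ ^ 2 - inner ℝ (areaProj u a) (areaProj u b) ^ 2 =
      areaDet3 a b u ^ 2 := by
  rw [areaProj_norm_sq a u hu, areaProj_norm_sq b u hu, areaProj_inner a b u hu]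
  have hu' : u 0 ^ 2 + u 1 ^ 2 + u 2 ^ 2 = 1 := by
    have := EuclideanSpace.real_norm_sq_eq u
    rw [hu, Fin.sum_univ_three] at this
    linarith
  rw [EuclideanSpace.real_norm_sq_eq a, EuclideanSpace.real_norm_sq_eq b]
  simp only [PiLp.inner_apply, Fin.sum_univ_three, RCLike.inner_apply, conj_trivial, areaDet3]
  linear_combination (-(a 0 ^ 2 + a 1 ^ 2 + a 2 ^ 2) * (b 0 ^ 2 + b 1 ^ 2 + b 2 ^ 2) +
    (a 0 * b 0 + a 1 * b 1 + a 2 * b 2) ^ 2) * hu'

/-- Area of the projection of a triangle. -/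
theorem area_proj_triangle (P Q R u : EuclideanSpace ℝ (Fin 3)) (hu : ‖u‖ = 1) :
    μHE[2] (convexHull ℝ {areaProj u P, areaProj u Q, areaProj u R}) =
      ENNReal.ofReal (|areaDet3 (Q - P) (R - P) u| / 2) := by
  rw [area_triangle, areaProj_sub, areaProj_sub, areaProj_gram _ _ _ hu, Real.sqrt_sq_eq_abs]

/-- Area of the projection of a quadruple: at least half the determinant of the two diagonals. -/
theorem area_proj_quadrilateral_ge (A B C D u : EuclideanSpace ℝ (Fin 3)) (hu : ‖u‖ = 1) :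
    ENNReal.ofReal (|areaDet3 (A - B) (C - D) u| / 2) ≤
      μHE[2] (convexHull ℝ {areaProj u A, areaProj u B, areaProj u C, areaProj u D}) := by
  have h := area_quadrilateral_ge (areaProj u A) (areaProj u B) (areaProj u C) (areaProj u D)
  rwa [areaProj_sub, areaProj_sub, areaProj_gram _ _ _ hu, Real.sqrt_sq_eq_abs] at h

/-! ### The standard tetrahedron -/

theorem area_tetra_core (b1 b2 b3 : ℝ) (h : b1 ^ 2 + b2 ^ 2 + b3 ^ 2 = 2)
    (h1 : |b1| < 1) (h2 : |b2| < 1) (h3 : |b3| < 1)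
    (g1 : |b2 + b3 - b1| < 2) (g2 : |b2 + b3 + b1| < 2)
    (g3 : |b2 - b3 + b1| < 2) (g4 : |b2 - b3 - b1| < 2) : False := by
  have hx := abs_nonneg b1
  have hy := abs_nonneg b2
  have hz := abs_nonneg b3
  have hsum : |b1| + |b2| + |b3| < 2 := by
    rw [abs_lt] at g1 g2 g3 g4
    rcases abs_cases b1 with ⟨e1, _⟩ | ⟨e1, _⟩ <;> rcases abs_cases b2 with ⟨e2, _⟩ | ⟨e2, _⟩ <;>
      rcases abs_cases b3 with ⟨e3, _⟩ | ⟨e3, _⟩ <;> rw [e1, e2, e3] <;> linarith
  have hsq : |b1| ^ 2 + |b2| ^ 2 + |b3| ^ 2 = 2 := by simpa only [sq_abs] using h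
  have hsum2 : (|b1| + |b2| + |b3|) ^ 2 < 4 := by nlinarith
  have hx2 : |b1| ^ 2 < 1 := by nlinarith
  have hy2 : |b2| ^ 2 < 1 := by nlinarith
  have hz2 : |b3| ^ 2 < 1 := by nlinarith
  rcases le_total |b1| |b2| with h12 | h12 <;> rcases le_total |b2| |b3| with h23 | h23 <;>
    rcases le_total |b1| |b3| with h13 | h13 <;>
    nlinarith [mul_nonneg hx hy, mul_nonneg hy hz, mul_nonneg hx hz,
      mul_nonneg hx (sub_nonneg.2 h12), mul_nonneg hy (sub_nonneg.2 h23),
      mul_nonneg hx (sub_nonneg.2 h13), mul_nonneg hy (sub_nonneg.2 h12),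
      mul_nonneg hz (sub_nonneg.2 h23), mul_nonneg hz (sub_nonneg.2 h13)]

/-- The algebraic heart of the projection bound: the seven lower bounds (three "quadrilateral"
bounds, four face bounds) cannot all be `< √2` on the unit sphere (`s = √2`). -/
theorem area_tetra_alg (v0 v1 v2 s : ℝ) (hs : 0 < s) (hs2 : s ^ 2 = 2)
    (hv : v0 ^ 2 + v1 ^ 2 + v2 ^ 2 = 1)
    (q1 : |2 * v2| < s) (q2 : |s * (v0 + v1)| < s) (q3 : |s * (v1 - v0)| < s)
    (f1 : |s * v1 - v2| < s) (f2 : |s * v1 + v2| < s)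
    (f3 : |s * v0 + v2| < s) (f4 : |s * v0 - v2| < s) : False := by
  have hss : s * s = 2 := by rw [← hs2]; ring
  rw [abs_lt] at q1 q2 q3 f1 f2 f3 f4
  refine area_tetra_core (s * v2) (v0 + v1) (v1 - v0) (by nlinarith) ?_ ?_ ?_ ?_ ?_ ?_ ?_
  · rw [abs_lt]; constructor <;> nlinarith
  · rw [abs_lt]; constructor <;> nlinarith
  · rw [abs_lt]; constructor <;> nlinarith
  · rw [abs_lt]; constructor <;> nlinarith
  · rw [abs_lt]; constructor <;> nlinarith
  · rw [abs_lt]; constructor <;> nlinarith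
  · rw [abs_lt]; constructor <;> nlinarith

theorem area_tetra_det1 (v : EuclideanSpace ℝ (Fin 3)) :
    areaDet3 ((!₂[1, 0, 0] : EuclideanSpace ℝ (Fin 3)) - !₂[-1, 0, 0])
      ((!₂[0, 1, Real.sqrt 2] : EuclideanSpace ℝ (Fin 3)) - !₂[0, -1, Real.sqrt 2]) v
      = 4 * v 2 := by
  simp [areaDet3]
  ring

theorem area_tetra_det2 (v : EuclideanSpace ℝ (Fin 3)) :
    areaDet3 ((!₂[1, 0, 0] : EuclideanSpace ℝ (Fin 3)) - !₂[0, 1, Real.sqrt 2])
      ((!₂[-1, 0, 0] : EuclideanSpace ℝ (Fin 3)) - !₂[0, -1, Real.sqrt 2]) v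
      = 2 * (Real.sqrt 2 * (v 0 + v 1)) := by
  simp [areaDet3]
  ring

theorem area_tetra_det3 (v : EuclideanSpace ℝ (Fin 3)) :
    areaDet3 ((!₂[1, 0, 0] : EuclideanSpace ℝ (Fin 3)) - !₂[0, -1, Real.sqrt 2])
      ((!₂[-1, 0, 0] : EuclideanSpace ℝ (Fin 3)) - !₂[0, 1, Real.sqrt 2]) v
      = 2 * (Real.sqrt 2 * (v 1 - v 0)) := by
  simp [areaDet3]
  ring

theorem area_tetra_det4 (v : EuclideanSpace ℝ (Fin 3)) :
    areaDet3 ((!₂[-1, 0, 0] : EuclideanSpace ℝ (Fin 3)) - !₂[1, 0, 0])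
      ((!₂[0, 1, Real.sqrt 2] : EuclideanSpace ℝ (Fin 3)) - !₂[1, 0, 0]) v
      = 2 * (Real.sqrt 2 * v 1 - v 2) := by
  simp [areaDet3]
  ring

theorem area_tetra_det5 (v : EuclideanSpace ℝ (Fin 3)) :
    areaDet3 ((!₂[-1, 0, 0] : EuclideanSpace ℝ (Fin 3)) - !₂[1, 0, 0])
      ((!₂[0, -1, Real.sqrt 2] : EuclideanSpace ℝ (Fin 3)) - !₂[1, 0, 0]) v
      = 2 * (Real.sqrt 2 * v 1 + v 2) := by
  simp [areaDet3]
  ring

theorem area_tetra_det6 (v : EuclideanSpace ℝ (Fin 3)) :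
    areaDet3 ((!₂[0, 1, Real.sqrt 2] : EuclideanSpace ℝ (Fin 3)) - !₂[1, 0, 0])
      ((!₂[0, -1, Real.sqrt 2] : EuclideanSpace ℝ (Fin 3)) - !₂[1, 0, 0]) v
      = 2 * (Real.sqrt 2 * v 0 + v 2) := by
  simp [areaDet3]
  ring

theorem area_tetra_det7 (v : EuclideanSpace ℝ (Fin 3)) :
    areaDet3 ((!₂[0, 1, Real.sqrt 2] : EuclideanSpace ℝ (Fin 3)) - !₂[-1, 0, 0])
      ((!₂[0, -1, Real.sqrt 2] : EuclideanSpace ℝ (Fin 3)) - !₂[-1, 0, 0]) v
      = 2 * (Real.sqrt 2 * v 0 - v 2) := by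
  simp [areaDet3]
  ring

/-- The projection of the standard tetrahedron is the hull of the four projected vertices. -/
theorem area_proj_tetra_image (v : EuclideanSpace ℝ (Fin 3)) :
    (fun y : EuclideanSpace ℝ (Fin 3) => y - inner ℝ y v • v) ''
        convexHull ℝ {!₂[1, 0, 0], !₂[-1, 0, 0], !₂[0, 1, Real.sqrt 2], !₂[0, -1, Real.sqrt 2]} =
      convexHull ℝ {areaProj v !₂[1, 0, 0], areaProj v !₂[-1, 0, 0],
        areaProj v !₂[0, 1, Real.sqrt 2], areaProj v !₂[0, -1, Real.sqrt 2]} := by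
  change areaProj v '' _ = _
  rw [(areaProj_isLinearMap v).image_convexHull]
  simp only [Set.image_insert_eq, Set.image_singleton]

/-- **Every orthogonal projection of the standard tetrahedron has area at least `√2`.** -/
theorem area_proj_tetra_ge (v : EuclideanSpace ℝ (Fin 3)) (hv : ‖v‖ = 1) :
    ENNReal.ofReal (Real.sqrt 2) ≤
      μHE[2] ((fun y : EuclideanSpace ℝ (Fin 3) => y - inner ℝ y v • v) ''
        convexHull ℝ {!₂[1, 0, 0], !₂[-1, 0, 0], !₂[0, 1, Real.sqrt 2],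
          !₂[0, -1, Real.sqrt 2]}) := by
  rw [area_proj_tetra_image]
  by_contra hlt
  push Not at hlt
  have hs : (0 : ℝ) < Real.sqrt 2 := Real.sqrt_pos.2 two_pos
  have hv' : v 0 ^ 2 + v 1 ^ 2 + v 2 ^ 2 = 1 := by
    have := EuclideanSpace.real_norm_sq_eq v
    rw [hv, Fin.sum_univ_three] at this
    linarith
  set a : EuclideanSpace ℝ (Fin 3) := !₂[1, 0, 0] with ha
  set b : EuclideanSpace ℝ (Fin 3) := !₂[-1, 0, 0] with hb
  set c : EuclideanSpace ℝ (Fin 3) := !₂[0, 1, Real.sqrt 2] with hc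
  set d : EuclideanSpace ℝ (Fin 3) := !₂[0, -1, Real.sqrt 2] with hd
  have q1 := lt_of_le_of_lt (area_proj_quadrilateral_ge a b c d v hv) hlt
  have q2 := lt_of_le_of_lt ((area_proj_quadrilateral_ge a c b d v hv).trans
    (measure_mono (convexHull_mono (by
      intro x
      simp only [Set.mem_insert_iff, Set.mem_singleton_iff]
      tauto)))) hlt
  have q3 := lt_of_le_of_lt ((area_proj_quadrilateral_ge a d b c v hv).trans
    (measure_mono (convexHull_mono (by
      intro x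
      simp only [Set.mem_insert_iff, Set.mem_singleton_iff]
      tauto)))) hlt
  have f1 := lt_of_le_of_lt ((area_proj_triangle a b c v hv).symm.le.trans
    (measure_mono (convexHull_mono (by
      intro x
      simp only [Set.mem_insert_iff, Set.mem_singleton_iff]
      tauto)))) hlt
  have f2 := lt_of_le_of_lt ((area_proj_triangle a b d v hv).symm.le.trans
    (measure_mono (convexHull_mono (by
      intro x
      simp only [Set.mem_insert_iff, Set.mem_singleton_iff]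
      tauto)))) hlt
  have f3 := lt_of_le_of_lt ((area_proj_triangle a c d v hv).symm.le.trans
    (measure_mono (convexHull_mono (by
      intro x
      simp only [Set.mem_insert_iff, Set.mem_singleton_iff]
      tauto)))) hlt
  have f4 := lt_of_le_of_lt ((area_proj_triangle b c d v hv).symm.le.trans
    (measure_mono (convexHull_mono (by
      intro x
      simp only [Set.mem_insert_iff, Set.mem_singleton_iff]
      tauto)))) hlt
  rw [ENNReal.ofReal_lt_ofReal_iff hs] at q1 q2 q3 f1 f2 f3 f4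
  rw [ha, hb, hc, hd, area_tetra_det1] at q1
  rw [ha, hb, hc, hd, area_tetra_det2] at q2
  rw [ha, hb, hc, hd, area_tetra_det3] at q3
  rw [ha, hb, hc, area_tetra_det4] at f1
  rw [ha, hb, hd, area_tetra_det5] at f2
  rw [ha, hc, hd, area_tetra_det6] at f3
  rw [hb, hc, hd, area_tetra_det7] at f4
  refine area_tetra_alg (v 0) (v 1) (v 2) (Real.sqrt 2) hs (Real.sq_sqrt (by norm_num)) hv'
    ?_ ?_ ?_ ?_ ?_ ?_ ?_
  · have h' := abs_lt.1 ((div_lt_iff₀ two_pos).1 q1)
    rw [abs_lt]; constructor <;> linarith [h'.1, h'.2]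
  · have h' := abs_lt.1 ((div_lt_iff₀ two_pos).1 q2)
    rw [abs_lt]; constructor <;> linarith [h'.1, h'.2]
  · have h' := abs_lt.1 ((div_lt_iff₀ two_pos).1 q3)
    rw [abs_lt]; constructor <;> linarith [h'.1, h'.2]
  · have h' := abs_lt.1 ((div_lt_iff₀ two_pos).1 f1)
    rw [abs_lt]; constructor <;> linarith [h'.1, h'.2]
  · have h' := abs_lt.1 ((div_lt_iff₀ two_pos).1 f2)
    rw [abs_lt]; constructor <;> linarith [h'.1, h'.2]
  · have h' := abs_lt.1 ((div_lt_iff₀ two_pos).1 f3)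
    rw [abs_lt]; constructor <;> linarith [h'.1, h'.2]
  · have h' := abs_lt.1 ((div_lt_iff₀ two_pos).1 f4)
    rw [abs_lt]; constructor <;> linarith [h'.1, h'.2]

/-- The projections of the standard tetrahedron have finite area. -/
theorem area_proj_tetra_lt_top (v : EuclideanSpace ℝ (Fin 3)) (hv : ‖v‖ = 1) :
    μHE[2] ((fun y : EuclideanSpace ℝ (Fin 3) => y - inner ℝ y v • v) ''
        convexHull ℝ {!₂[1, 0, 0], !₂[-1, 0, 0], !₂[0, 1, Real.sqrt 2],
          !₂[0, -1, Real.sqrt 2]}) < ⊤ := by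
  have hv0 : v ≠ 0 := by
    intro h
    rw [h, norm_zero] at hv
    exact zero_ne_one hv
  apply area_lt_top_of_isBounded_of_inner_eq_zero hv0
  · have hK : IsCompact (convexHull ℝ ({!₂[1, 0, 0], !₂[-1, 0, 0], !₂[0, 1, Real.sqrt 2],
        !₂[0, -1, Real.sqrt 2]} : Set (EuclideanSpace ℝ (Fin 3)))) :=
      Set.Finite.isCompact_convexHull ℝ (by simp)
    exact (hK.image (by fun_prop)).isBounded
  · rintro _ ⟨y, _, rfl⟩
    exact areaProj_inner_self v y hv

/-- Along the edge direction `(1,0,0)` the projection of the standard tetrahedron has area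
exactly `√2`. -/
theorem area_proj_tetra_eq :
    μHE[2] ((fun y : EuclideanSpace ℝ (Fin 3) =>
        y - inner ℝ y (!₂[1, 0, 0] : EuclideanSpace ℝ (Fin 3)) •
          (!₂[1, 0, 0] : EuclideanSpace ℝ (Fin 3))) ''
        convexHull ℝ {!₂[1, 0, 0], !₂[-1, 0, 0], !₂[0, 1, Real.sqrt 2],
          !₂[0, -1, Real.sqrt 2]}) = ENNReal.ofReal (Real.sqrt 2) := by
  rw [area_proj_tetra_image]
  have hv : ‖(!₂[1, 0, 0] : EuclideanSpace ℝ (Fin 3))‖ = 1 := by
    simp [EuclideanSpace.norm_eq, Fin.sum_univ_three]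
  have hab : areaProj (!₂[1, 0, 0] : EuclideanSpace ℝ (Fin 3)) !₂[-1, 0, 0] =
      areaProj (!₂[1, 0, 0] : EuclideanSpace ℝ (Fin 3)) !₂[1, 0, 0] := by
    have h1 : inner ℝ (!₂[-1, 0, 0] : EuclideanSpace ℝ (Fin 3)) !₂[1, 0, 0] = -1 := by
      simp [PiLp.inner_apply, Fin.sum_univ_three]
    have h2 : inner ℝ (!₂[1, 0, 0] : EuclideanSpace ℝ (Fin 3)) !₂[1, 0, 0] = 1 := by
      rw [real_inner_self_eq_norm_sq, hv]
      norm_num
    unfold areaProj
    rw [h1, h2]
    ext i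
    fin_cases i <;> simp
  rw [hab, Set.insert_eq_of_mem (Set.mem_insert _ _), area_proj_triangle _ _ _ _ hv,
    area_tetra_det6]
  congr 1
  simp

end Crest.Agent.S0324Lib
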